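import Vale.Agent.P315.H121.Step23

/-! Part A of the accounting: the mass decomposition by the smallest heavy scale, with steps
2, 3, 4 and the deterministic half of step 1.  Everything for one fixed offset of the grid. -/

set_option autoImplicit false

open Finset

namespace Vale.Agent.P315.H121

open Vale.Agent.P315.Acc

variable {X : Type} [Fintype X] [Nonempty X] (S : Sys X)

/-- Sum over all tops of scale `s`, all blocks of scale `s`, average over the leaves. -/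
noncomputable def TT (s : ℕ) (F : ℕ → X → ℕ → ℝ) : ℝ :=
  ∑ a ∈ range (S.na s), S.E (fun x => ∑ k ∈ range (S.nb s), F a x k)

theorem TT_eq (s : ℕ) (F : ℕ → X → ℕ → ℝ) :
    TT S s F = ∑ a ∈ range (S.na s), ∑ k ∈ range (S.nb s), S.E (fun x => F a x k) := by
  unfold TT Sys.E
  exact sum_congr rfl fun a _ => EE_sum _ _

theorem TT_mono {s : ℕ} {F F' : ℕ → X → ℕ → ℝ}
    (h : ∀ a, a < S.na s → ∀ x k, k < S.nb s → F a x k ≤ F' a x k) :
    TT S s F ≤ TT S s F' := by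
  unfold TT
  refine sum_le_sum fun a ha => EE_mono S.hw fun x => sum_le_sum fun k hk => ?_
  exact h a (mem_range.1 ha) x k (mem_range.1 hk)

theorem TT_add (s : ℕ) (F F' : ℕ → X → ℕ → ℝ) :
    TT S s (fun a x k => F a x k + F' a x k) = TT S s F + TT S s F' := by
  unfold TT Sys.E
  rw [← sum_add_distrib]
  refine sum_congr rfl fun a _ => ?_
  rw [← EE_add]
  congr 1
  funext x
  exact sum_add_distrib

theorem TT_mul_left (s : ℕ) (c : ℝ) (F : ℕ → X → ℕ → ℝ) :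
    TT S s (fun a x k => c * F a x k) = c * TT S s F := by
  unfold TT Sys.E
  rw [mul_sum]
  refine sum_congr rfl fun a _ => ?_
  rw [← EE_mul_left]
  congr 1
  funext x
  rw [mul_sum]

theorem TT_nonneg {s : ℕ} {F : ℕ → X → ℕ → ℝ}
    (h : ∀ a, a < S.na s → ∀ x k, k < S.nb s → 0 ≤ F a x k) : 0 ≤ TT S s F := by
  unfold TT
  refine sum_nonneg fun a ha => EE_nonneg S.hw fun x => sum_nonneg fun k hk => ?_
  exact h a (mem_range.1 ha) x k (mem_range.1 hk)

theorem top_le_n {s a : ℕ} (hs : s ≤ S.smax) (ha : a < S.na s) : (a + 1) * 2 ^ s ≤ S.n := by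
  rw [← na_mul S hs]
  exact Nat.mul_le_mul_right _ ha

/-- (F1), second form: mass of the nodes of level `j` below a top, by the units. -/
theorem av_nu_le' {s a j : ℕ} (h1 : a * 2 ^ s ≤ j) (h2 : j ≤ (a + 1) * 2 ^ s)
    (hL : (a + 1) * 2 ^ s ≤ S.n) (x : X) (b b' : ℕ) :
    S.av ((a + 1) * 2 ^ s) (fun y => S.nu j y b b') x ≤
      (S.V s a x b - S.V s a x b') + S.G s a x b' := by
  have h3 : S.av ((a + 1) * 2 ^ s) (fun y => S.nu j y b b') x =
      S.av ((a + 1) * 2 ^ s) (fun y => S.e j y b) x -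
        S.av ((a + 1) * 2 ^ s) (fun y => S.e j y b') x := avg_sub _ _ _ _
  have h4 := av_e_le_V S h1 h2 hL x b
  have h5 := e_le_av S h2 hL x b'
  have h6 : S.G s a x b' = S.V s a x b' - S.e ((a + 1) * 2 ^ s) x b' := rfl
  rw [h3, h6]
  linarith

theorem rho_eq (o s a : ℕ) (x : X) (k : ℕ) :
    S.rho o s a x k = S.nuT o s a x k + S.G s a x (S.b0 o s k) - S.G s a x (S.b1 o s k) := by
  unfold Sys.rho Sys.nuT Sys.nu Sys.G
  ring

theorem b0_le_b1 (o s k : ℕ) : S.b0 o s k ≤ S.b1 o s k := by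
  unfold Sys.b0 Sys.b1
  have : k * S.D s ≤ (k + 1) * S.D s := Nat.mul_le_mul_right _ (Nat.le_succ k)
  omega

theorem V_anti {s a : ℕ} (x : X) {b b' : ℕ} (h : b ≤ b') : S.V s a x b' ≤ S.V s a x b := by
  unfold Sys.V Sys.av
  exact avg_mono S.hw x fun y _ => S.anti _ y h

theorem rho_nonneg (o s a : ℕ) (x : X) (k : ℕ) : 0 ≤ S.rho o s a x k := by
  unfold Sys.rho
  have := V_anti S (s := s) (a := a) x (b0_le_b1 S o s k)
  linarith

/-- Passage from the elements (level `j`, block `k` of scale `0`) to the blocks of scale `s`,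
for a weight that depends on the block of scale `s` of the top only. -/
theorem elem_eq {s : ℕ} (hs : s ≤ S.smax) (o j : ℕ) (f : X → ℕ → ℝ) :
    ∑ k ∈ range (S.nb 0), S.E (fun x => f x (k / 16 ^ s) *
        S.nu j x (S.b0 o 0 k) (S.b1 o 0 k)) =
      ∑ K ∈ range (S.nb s), S.E (fun x => f x K * S.nu j x (S.b0 o s K) (S.b1 o s K)) := by
  unfold Sys.E
  rw [← EE_sum, ← EE_sum]
  congr 1
  funext x
  exact sum_blocks S hs o j x (f x)

/-- STEP 4, for an arbitrary top-measurable weight. -/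
theorem step4 {s : ℕ} (hs : s ≤ S.smax) (o : ℕ) (f : ℕ → X → ℕ → ℝ)
    (h0 : ∀ a x k, 0 ≤ f a x k)
    (hm : ∀ a x y k, S.q ((a + 1) * 2 ^ s) y = S.q ((a + 1) * 2 ^ s) x → f a y k = f a x k) :
    ∑ j ∈ range S.n, ∑ k ∈ range (S.nb 0),
      S.E (fun x => f (j / 2 ^ s) x (k / 16 ^ s) * S.nu j x (S.b0 o 0 k) (S.b1 o 0 k)) ≤
      2 ^ s * TT S s (fun a x k => f a x k * (S.rho o s a x k + S.G s a x (S.b1 o s k))) := by
  have key : ∀ j ∈ range S.n, ∑ k ∈ range (S.nb 0),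
      S.E (fun x => f (j / 2 ^ s) x (k / 16 ^ s) * S.nu j x (S.b0 o 0 k) (S.b1 o 0 k)) ≤
      ∑ K ∈ range (S.nb s), S.E (fun x => f (j / 2 ^ s) x K *
        (S.rho o s (j / 2 ^ s) x K + S.G s (j / 2 ^ s) x (S.b1 o s K))) := by
    intro j hj
    rw [mem_range] at hj
    obtain ⟨h1, h2, h3, _⟩ := lev S hs hj
    rw [elem_eq S hs o j (f (j / 2 ^ s))]
    refine sum_le_sum fun K _ => ?_
    unfold Sys.E
    rw [← EE_pull (q := S.q) S.hw ((j / 2 ^ s + 1) * 2 ^ s)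
      (f := fun x => S.nu j x (S.b0 o s K) (S.b1 o s K)) (h := fun x => f (j / 2 ^ s) x K)
      (fun x y h => hm _ x y K h)]
    exact EE_mono S.hw fun x =>
      mul_le_mul_of_nonneg_left (av_nu_le' S h1 h2 h3 x _ _) (h0 _ x K)
  refine (sum_le_sum key).trans (le_of_eq ?_)
  rw [TT_eq]
  exact sum_levels S hs (fun a => ∑ K ∈ range (S.nb s), S.E (fun x => f a x K *
        (S.rho o s a x K + S.G s a x (S.b1 o s K))))

/-- STEP 1, deterministic half: heavy blocks of scale `0`. -/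
theorem step1 (o : ℕ) (t : ℝ) :
    ∑ j ∈ range S.n, ∑ k ∈ range (S.nb 0),
      S.E (fun x => ind (t ≤ S.nuT o 0 (j / 2 ^ 0) x (k / 16 ^ 0)) *
        S.nu j x (S.b0 o 0 k) (S.b1 o 0 k)) ≤
      TT S 0 (fun a x k => ind (t / 2 ≤ S.rho o 0 a x k) * S.rho o 0 a x k) +
        TT S 0 (fun a x k => S.G 0 a x (S.b1 o 0 k)) := by
  have key : ∀ j ∈ range S.n, ∑ k ∈ range (S.nb 0),
      S.E (fun x => ind (t ≤ S.nuT o 0 (j / 2 ^ 0) x (k / 16 ^ 0)) *
        S.nu j x (S.b0 o 0 k) (S.b1 o 0 k)) ≤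
      ∑ K ∈ range (S.nb 0), S.E (fun x => ind (t / 2 ≤ S.rho o 0 j x K) * S.rho o 0 j x K +
        S.G 0 j x (S.b1 o 0 K)) := by
    intro j hj
    rw [mem_range] at hj
    obtain ⟨h1, h2, h3, _⟩ := lev S (Nat.zero_le _) hj
    refine sum_le_sum fun K _ => ?_
    simp only [pow_zero, Nat.div_one] at h1 h2 h3 ⊢
    have h3' : (j + 1) * 2 ^ 0 ≤ S.n := by simpa using h3
    unfold Sys.E
    rw [← EE_pull (q := S.q) S.hw ((j + 1) * 2 ^ 0)
      (f := fun x => S.nu j x (S.b0 o 0 K) (S.b1 o 0 K)) (h := fun x => ind (t ≤ S.nuT o 0 j x K))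
      (fun x y h => by rw [nuT_meas S o 0 j K h])]
    refine EE_mono S.hw fun x => ?_
    have h4 : avg S.w S.q ((j + 1) * 2 ^ 0)
        (fun y => S.nu j y (S.b0 o 0 K) (S.b1 o 0 K)) x = S.rho o 0 j x K := by
      unfold Sys.rho Sys.V Sys.av Sys.nu
      rw [← avg_sub]
      simp
    rw [h4]
    have h5 := rho_eq S o 0 j x K
    have h6 := G_nonneg S h3' x (S.b0 o 0 K)
    have h7 := G_nonneg S h3' x (S.b1 o 0 K)
    have h8 := rho_nonneg S o 0 j x K
    by_cases h9 : t ≤ S.nuT o 0 j x K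
    · rw [ind_true h9, one_mul]
      by_cases h10 : t / 2 ≤ S.rho o 0 j x K
      · rw [ind_true h10]; linarith
      · rw [ind_false h10]; push Not at h10; linarith
    · rw [ind_false h9, zero_mul]
      have := mul_nonneg (ind_nonneg (t / 2 ≤ S.rho o 0 j x K)) h8
      linarith
  refine (sum_le_sum key).trans (le_of_eq ?_)
  rw [← TT_add, TT_eq]
  have : S.na 0 = S.n := by simp [Sys.na]
  rw [this]

/-- Total mass of a node in the window. -/
theorem sum_nu0 {o : ℕ} (ho : o ≤ S.D S.smax) (j : ℕ) (x : X) :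
    S.e j x (S.D S.smax) ≤ ∑ k ∈ range (S.nb 0), S.nu j x (S.b0 o 0 k) (S.b1 o 0 k) := by
  have h : ∀ k ∈ range (S.nb 0), S.nu j x (S.b0 o 0 k) (S.b1 o 0 k) =
      S.e j x (o + k * S.D 0) - S.e j x (o + (k + 1) * S.D 0) := fun k _ => rfl
  rw [sum_congr rfl h, sum_range_sub' (fun k => S.e j x (o + k * S.D 0))]
  have h1 : S.nb 0 * S.D 0 = S.NB * S.D S.smax := nbD S (Nat.zero_le _)
  have h2 : S.e j x (o + S.nb 0 * S.D 0) = 0 := by
    refine S.final j x _ ?_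
    rw [h1]
    unfold Sys.D
    omega
  have h3 : S.e j x (S.D S.smax) ≤ S.e j x (o + 0 * S.D 0) := by
    refine S.anti j x ?_
    omega
  linarith

/-- The covering by the smallest heavy scale. -/
theorem covering (m : ℕ) (th th' v : ℕ → ℝ) :
    1 ≤ ind (th 0 ≤ v 0) + ind (∀ t, t ≤ m → v t < th t) +
      ∑ s ∈ range m, (ind (v s < th s ∧ th' (s + 1) < v (s + 1)) +
        ind (th (s + 1) ≤ v (s + 1) ∧ v (s + 1) ≤ th' (s + 1))) := by
  induction m with
  | zero =>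
    simp only [range_zero, sum_empty, add_zero]
    by_cases h : th 0 ≤ v 0
    · rw [ind_true h]
      have := ind_nonneg (∀ t, t ≤ 0 → v t < th t)
      linarith
    · have h2 : ∀ t, t ≤ 0 → v t < th t := by
        intro t ht
        have : t = 0 := by omega
        rw [this]; exact not_le.1 h
      rw [ind_true h2]
      have := ind_nonneg (th 0 ≤ v 0)
      linarith
  | succ m ih =>
    rw [sum_range_succ]
    refine ih.trans ?_
    have key : ind (∀ t, t ≤ m → v t < th t) ≤ ind (∀ t, t ≤ m + 1 → v t < th t) +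
        (ind (v m < th m ∧ th' (m + 1) < v (m + 1)) +
          ind (th (m + 1) ≤ v (m + 1) ∧ v (m + 1) ≤ th' (m + 1))) := by
      have n1 := ind_nonneg (∀ t, t ≤ m + 1 → v t < th t)
      have n2 := ind_nonneg (v m < th m ∧ th' (m + 1) < v (m + 1))
      have n3 := ind_nonneg (th (m + 1) ≤ v (m + 1) ∧ v (m + 1) ≤ th' (m + 1))
      by_cases hall : ∀ t, t ≤ m → v t < th t
      · rw [ind_true hall]
        by_cases h1 : v (m + 1) < th (m + 1)
        · have h2 : ∀ t, t ≤ m + 1 → v t < th t := by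
            intro t ht
            rcases Nat.lt_or_ge t (m + 1) with h | h
            · exact hall t (by omega)
            · have : t = m + 1 := by omega
              rw [this]; exact h1
          rw [ind_true h2]; linarith
        · push Not at h1
          by_cases h3 : th' (m + 1) < v (m + 1)
          · rw [ind_true (⟨hall m le_rfl, h3⟩ : v m < th m ∧ th' (m + 1) < v (m + 1))]
            linarith
          · push Not at h3
            rw [ind_true (⟨h1, h3⟩ : th (m + 1) ≤ v (m + 1) ∧ v (m + 1) ≤ th' (m + 1))]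
            linarith
      · rw [ind_false hall]; linarith
    linarith

/-- MASS DECOMPOSITION with steps 1 (deterministic half), 2, 3, 4. -/
theorem mass {o : ℕ} (ho : o ≤ S.D S.smax) (th th' eps : ℕ → ℝ) (hth : ∀ s, 0 ≤ th s)
    (heps : ∀ s, 0 ≤ eps s) (h16 : ∀ s, s < S.smax → 16 * th s ≤ eps (s + 1) * th' (s + 1)) :
    ∑ j ∈ range S.n, S.E (fun x => S.e j x (S.D S.smax)) ≤
      TT S 0 (fun a x k => ind (th 0 / 2 ≤ S.rho o 0 a x k) * S.rho o 0 a x k) +
      TT S 0 (fun a x k => S.G 0 a x (S.b1 o 0 k)) +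
      (S.n * (S.NB * th S.smax) +
        2 ^ S.smax * TT S S.smax (fun a x k => S.G S.smax a x (S.b0 o S.smax k))) +
      ∑ s ∈ range S.smax,
        ((eps (s + 1) * S.n + 2 ^ s * TT S s (fun a x k => S.G s a x (S.b0 o s k))) +
        2 ^ (s + 1) * TT S (s + 1) (fun a x k =>
          ind (th (s + 1) ≤ S.nuT o (s + 1) a x k ∧ S.nuT o (s + 1) a x k ≤ th' (s + 1)) *
          (S.rho o (s + 1) a x k + S.G (s + 1) a x (S.b1 o (s + 1) k)))) := by
  have e0 : ∑ j ∈ range S.n, S.E (fun x => S.e j x (S.D S.smax)) ≤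
      ∑ j ∈ range S.n, ∑ k ∈ range (S.nb 0), S.E (fun x =>
        (ind (th 0 ≤ S.nuT o 0 (j / 2 ^ 0) x (k / 16 ^ 0)) +
          ind (∀ t, t ≤ S.smax → S.nuT o t (j / 2 ^ t) x (k / 16 ^ t) < th t) +
          ∑ s ∈ range S.smax,
            (ind (S.nuT o s (j / 2 ^ s) x (k / 16 ^ s) < th s ∧
              th' (s + 1) < S.nuT o (s + 1) (j / 2 ^ (s + 1)) x (k / 16 ^ (s + 1))) +
            ind (th (s + 1) ≤ S.nuT o (s + 1) (j / 2 ^ (s + 1)) x (k / 16 ^ (s + 1)) ∧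
              S.nuT o (s + 1) (j / 2 ^ (s + 1)) x (k / 16 ^ (s + 1)) ≤ th' (s + 1)))) *
        S.nu j x (S.b0 o 0 k) (S.b1 o 0 k)) := by
    refine sum_le_sum fun j _ => ?_
    unfold Sys.E
    rw [← EE_sum]
    refine EE_mono S.hw fun x => (sum_nu0 S ho j x).trans ?_
    refine sum_le_sum fun k _ => ?_
    have h1 := covering S.smax th th' (fun t => S.nuT o t (j / 2 ^ t) x (k / 16 ^ t))
    have h2 : 0 ≤ S.nu j x (S.b0 o 0 k) (S.b1 o 0 k) := nu_nonneg S j x (b0_le_b1 S o 0 k)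
    calc S.nu j x (S.b0 o 0 k) (S.b1 o 0 k) = 1 * S.nu j x (S.b0 o 0 k) (S.b1 o 0 k) := by
          rw [one_mul]
      _ ≤ _ := mul_le_mul_of_nonneg_right h1 h2
  have e1 : ∀ j k, S.E (fun x =>
        (ind (th 0 ≤ S.nuT o 0 (j / 2 ^ 0) x (k / 16 ^ 0)) +
          ind (∀ t, t ≤ S.smax → S.nuT o t (j / 2 ^ t) x (k / 16 ^ t) < th t) +
          ∑ s ∈ range S.smax,
            (ind (S.nuT o s (j / 2 ^ s) x (k / 16 ^ s) < th s ∧
              th' (s + 1) < S.nuT o (s + 1) (j / 2 ^ (s + 1)) x (k / 16 ^ (s + 1))) +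
            ind (th (s + 1) ≤ S.nuT o (s + 1) (j / 2 ^ (s + 1)) x (k / 16 ^ (s + 1)) ∧
              S.nuT o (s + 1) (j / 2 ^ (s + 1)) x (k / 16 ^ (s + 1)) ≤ th' (s + 1)))) *
        S.nu j x (S.b0 o 0 k) (S.b1 o 0 k)) =
      S.E (fun x => ind (th 0 ≤ S.nuT o 0 (j / 2 ^ 0) x (k / 16 ^ 0)) *
        S.nu j x (S.b0 o 0 k) (S.b1 o 0 k)) +
      S.E (fun x => ind (∀ t, t ≤ S.smax → S.nuT o t (j / 2 ^ t) x (k / 16 ^ t) < th t) *
        S.nu j x (S.b0 o 0 k) (S.b1 o 0 k)) +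
      ∑ s ∈ range S.smax,
        (S.E (fun x => ind (S.nuT o s (j / 2 ^ s) x (k / 16 ^ s) < th s ∧
              th' (s + 1) < S.nuT o (s + 1) (j / 2 ^ (s + 1)) x (k / 16 ^ (s + 1))) *
            S.nu j x (S.b0 o 0 k) (S.b1 o 0 k)) +
          S.E (fun x => ind (th (s + 1) ≤
              S.nuT o (s + 1) (j / 2 ^ (s + 1)) x (k / 16 ^ (s + 1)) ∧
              S.nuT o (s + 1) (j / 2 ^ (s + 1)) x (k / 16 ^ (s + 1)) ≤ th' (s + 1)) *
            S.nu j x (S.b0 o 0 k) (S.b1 o 0 k))) := by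
    intro j k
    unfold Sys.E
    have : ∀ s ∈ range S.smax,
        (EE S.w (fun x => ind (S.nuT o s (j / 2 ^ s) x (k / 16 ^ s) < th s ∧
              th' (s + 1) < S.nuT o (s + 1) (j / 2 ^ (s + 1)) x (k / 16 ^ (s + 1))) *
            S.nu j x (S.b0 o 0 k) (S.b1 o 0 k)) +
          EE S.w (fun x => ind (th (s + 1) ≤
              S.nuT o (s + 1) (j / 2 ^ (s + 1)) x (k / 16 ^ (s + 1)) ∧
              S.nuT o (s + 1) (j / 2 ^ (s + 1)) x (k / 16 ^ (s + 1)) ≤ th' (s + 1)) *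
            S.nu j x (S.b0 o 0 k) (S.b1 o 0 k))) =
        EE S.w (fun x => ind (S.nuT o s (j / 2 ^ s) x (k / 16 ^ s) < th s ∧
              th' (s + 1) < S.nuT o (s + 1) (j / 2 ^ (s + 1)) x (k / 16 ^ (s + 1))) *
            S.nu j x (S.b0 o 0 k) (S.b1 o 0 k) + ind (th (s + 1) ≤
              S.nuT o (s + 1) (j / 2 ^ (s + 1)) x (k / 16 ^ (s + 1)) ∧
              S.nuT o (s + 1) (j / 2 ^ (s + 1)) x (k / 16 ^ (s + 1)) ≤ th' (s + 1)) *
            S.nu j x (S.b0 o 0 k) (S.b1 o 0 k)) := fun s _ => (EE_add _ _).symm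
    rw [sum_congr rfl this, ← EE_sum, ← EE_add, ← EE_add]
    congr 1
    funext x
    rw [add_mul, add_mul, sum_mul]
    congr 1
    exact sum_congr rfl fun s _ => add_mul _ _ _
  simp only [e1] at e0
  simp only [sum_add_distrib] at e0
  have e2 : ∀ F : ℕ → ℕ → ℕ → ℝ, ∑ j ∈ range S.n, ∑ k ∈ range (S.nb 0),
      ∑ s ∈ range S.smax, F j k s = ∑ s ∈ range S.smax, ∑ j ∈ range S.n,
        ∑ k ∈ range (S.nb 0), F j k s := by
    intro F
    have h : ∑ j ∈ range S.n, ∑ k ∈ range (S.nb 0), ∑ s ∈ range S.smax, F j k s =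
        ∑ j ∈ range S.n, ∑ s ∈ range S.smax, ∑ k ∈ range (S.nb 0), F j k s :=
      sum_congr rfl fun j _ => sum_comm
    rw [h]
    exact sum_comm
  rw [e2, e2] at e0
  have f1 := step1 S o (th 0)
  have f2 := step2 S th (hth _) o
  rw [← TT_eq S S.smax (fun a x k => S.G S.smax a x (S.b0 o S.smax k))] at f2
  have f3 : ∑ s ∈ range S.smax, ∑ j ∈ range S.n, ∑ k ∈ range (S.nb 0),
      S.E (fun x => ind (S.nuT o s (j / 2 ^ s) x (k / 16 ^ s) < th s ∧
              th' (s + 1) < S.nuT o (s + 1) (j / 2 ^ (s + 1)) x (k / 16 ^ (s + 1))) *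
            S.nu j x (S.b0 o 0 k) (S.b1 o 0 k)) ≤
      ∑ s ∈ range S.smax,
        (eps (s + 1) * S.n + 2 ^ s * TT S s (fun a x k => S.G s a x (S.b0 o s k))) := by
    refine sum_le_sum fun s hs => ?_
    rw [mem_range] at hs
    rw [TT_eq]
    exact step3 S hs (th s) (th' (s + 1)) (eps (s + 1)) (hth s) (heps _) (h16 s hs) o
  have f4 : ∑ s ∈ range S.smax, ∑ j ∈ range S.n, ∑ k ∈ range (S.nb 0),
      S.E (fun x => ind (th (s + 1) ≤
              S.nuT o (s + 1) (j / 2 ^ (s + 1)) x (k / 16 ^ (s + 1)) ∧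
              S.nuT o (s + 1) (j / 2 ^ (s + 1)) x (k / 16 ^ (s + 1)) ≤ th' (s + 1)) *
            S.nu j x (S.b0 o 0 k) (S.b1 o 0 k)) ≤
      ∑ s ∈ range S.smax, 2 ^ (s + 1) * TT S (s + 1) (fun a x k =>
          ind (th (s + 1) ≤ S.nuT o (s + 1) a x k ∧ S.nuT o (s + 1) a x k ≤ th' (s + 1)) *
          (S.rho o (s + 1) a x k + S.G (s + 1) a x (S.b1 o (s + 1) k))) := by
    refine sum_le_sum fun s hs => ?_
    rw [mem_range] at hs
    exact step4 S (by omega) o (fun a x k =>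
      ind (th (s + 1) ≤ S.nuT o (s + 1) a x k ∧ S.nuT o (s + 1) a x k ≤ th' (s + 1)))
      (fun a x k => ind_nonneg _) (fun a x y k h => by rw [nuT_meas S o (s + 1) a k h])
  rw [sum_add_distrib]
  linarith

/-- STEP 5, pointwise: a block that is not tight. -/
theorem not_tight {t tau nu rho G0 G1 : ℝ} (hnu : t ≤ nu) (htau : 1000 * tau ≤ t)
    (hrho : rho = nu + G0 - G1) (hG1 : 0 ≤ G1) (_hG0 : 0 ≤ G0) (htau0 : 0 ≤ tau)
    (hnt : ¬ (G0 + G1 + 2 * tau ≤ nu / 4)) : rho + G1 ≤ 6 * (G0 + G1) := by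
  push Not at hnt
  linarith

/-- STEP 7, pointwise: an active block that is not tight. -/
theorem active_not_tight {t tau nu m G0 G1 : ℝ} (hm : 3 / 8 * t ≤ m) (htau : 1000 * tau ≤ t)
    (hm2 : m ≤ nu + G0 + 2 * tau) (hG1 : 0 ≤ G1) (_hG0 : 0 ≤ G0) (htau0 : 0 ≤ tau)
    (hnt : ¬ (G0 + G1 + 2 * tau ≤ nu / 4)) : m ≤ 6 * (G0 + G1) := by
  push Not at hnt
  linarith

end Vale.Agent.P315.H121
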