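import Vale.Agent.P315.H679.AccDefs

/-! Part A of the accounting, steps 2 and 3: elements that are light at all scales, and elements
of type `s + 1` whose top has a large mass.  Everything for one fixed offset of the grid. -/

set_option autoImplicit false

open Finset

namespace Vale.Agent.P315.H121

open Vale.Agent.P315.Acc

section grid

/-- Grouping of a sum over `range (A * B)` in groups of length `B`. -/
theorem sum_range_group (f : ℕ → ℝ) (A B : ℕ) :
    ∑ k ∈ range (A * B), f k = ∑ K ∈ range A, ∑ i ∈ range B, f (K * B + i) := by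
  induction A with
  | zero => simp
  | succ A ih =>
    rw [sum_range_succ, ← ih, Nat.succ_mul, sum_range_add]

theorem sum_range_div (f : ℕ → ℝ) (A B : ℕ) :
    ∑ k ∈ range (A * B), f (k / B) = (B : ℝ) * ∑ K ∈ range A, f K := by
  rcases Nat.eq_zero_or_pos B with hB | hB
  · simp [hB]
  rw [sum_range_group, mul_sum]
  refine sum_congr rfl fun K _ => ?_
  have h : ∀ i ∈ range B, f ((K * B + i) / B) = f K := by
    intro i hi
    rw [mem_range] at hi
    rw [Nat.mul_comm K B, Nat.mul_add_div hB, Nat.div_eq_of_lt hi, Nat.add_zero]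
  rw [sum_congr rfl h, sum_const, card_range, nsmul_eq_mul]

end grid

variable {X : Type} [Fintype X] [Nonempty X] (S : Sys X)

theorem nest' {i j : ℕ} (hij : i ≤ j) {x y : X} (h : S.q i x = S.q i y) :
    S.q j x = S.q j y := by
  induction hij with
  | refl => exact h
  | step _ ih => exact S.nest _ _ _ ih

theorem e_le_av {i j : ℕ} (hij : i ≤ j) (hj : j ≤ S.n) (x : X) (b : ℕ) :
    S.e j x b ≤ S.av j (fun y => S.e i y b) x := by
  induction j, hij using Nat.le_induction generalizing x with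
  | base =>
    refine le_of_eq ?_
    exact (avg_const (w := S.w) S.hw (j := i) (h := fun y => S.e i y b) x
      (fun y hy => by show S.e i y b = S.e i x b; rw [S.meas i y x hy])).symm
  | succ j hij ih =>
    refine (S.gain j x b (by omega)).trans ?_
    refine (avg_mono S.hw x (g := fun y => S.av j (fun z => S.e i z b) y)
      (fun y _ => ih (by omega) y)).trans ?_
    exact (avg_avg S.hw (fun x y h => S.nest j x y h) _ x).le

theorem av_e_le_V {s a j : ℕ} (h1 : a * 2 ^ s ≤ j) (h2 : j ≤ (a + 1) * 2 ^ s)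
    (hL : (a + 1) * 2 ^ s ≤ S.n) (x : X) (b : ℕ) :
    S.av ((a + 1) * 2 ^ s) (fun y => S.e j y b) x ≤ S.V s a x b := by
  unfold Sys.V
  refine (avg_mono S.hw x (g := fun y => S.av j (fun z => S.e (a * 2 ^ s) z b) y)
    (fun y _ => e_le_av S h1 (h2.trans hL) y b)).trans ?_
  exact (avg_avg S.hw (fun x y h => nest' S h2 h) _ x).le

/-- (F1): the mass of the nodes of level `j` below a top. -/
theorem av_nu_le {s a j : ℕ} (h1 : a * 2 ^ s ≤ j) (h2 : j ≤ (a + 1) * 2 ^ s)
    (hL : (a + 1) * 2 ^ s ≤ S.n) (x : X) (b b' : ℕ) :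
    S.av ((a + 1) * 2 ^ s) (fun y => S.nu j y b b') x ≤
      S.nu ((a + 1) * 2 ^ s) x b b' + S.G s a x b := by
  have h3 : S.av ((a + 1) * 2 ^ s) (fun y => S.nu j y b b') x =
      S.av ((a + 1) * 2 ^ s) (fun y => S.e j y b) x -
        S.av ((a + 1) * 2 ^ s) (fun y => S.e j y b') x := avg_sub _ _ _ _
  have h4 := av_e_le_V S h1 h2 hL x b
  have h5 := e_le_av S h2 hL x b'
  rw [h3]
  unfold Sys.nu Sys.G
  linarith

theorem G_nonneg {s a : ℕ} (hL : (a + 1) * 2 ^ s ≤ S.n) (x : X) (b : ℕ) :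
    0 ≤ S.G s a x b := by
  unfold Sys.G Sys.V
  have := e_le_av S (i := a * 2 ^ s) (Nat.mul_le_mul_right _ (Nat.le_succ a)) hL x b
  linarith

theorem nu_nonneg (j : ℕ) (x : X) {b b' : ℕ} (h : b ≤ b') : 0 ≤ S.nu j x b b' := by
  unfold Sys.nu
  have := S.anti j x h
  linarith

theorem D_pos (s : ℕ) : 0 < S.D s := by
  unfold Sys.D
  have := S.hD0
  positivity

theorem nuT_nonneg (o s a : ℕ) (x : X) (k : ℕ) : 0 ≤ S.nuT o s a x k := by
  unfold Sys.nuT
  refine nu_nonneg S _ x ?_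
  unfold Sys.b0 Sys.b1
  have : k * S.D s ≤ (k + 1) * S.D s := Nat.mul_le_mul_right _ (Nat.le_succ k)
  omega

/-- A weight that is constant on the tops, times the mass of the nodes of level `j`. -/
theorem E_nu_le {s a j : ℕ} (h1 : a * 2 ^ s ≤ j) (h2 : j ≤ (a + 1) * 2 ^ s)
    (hL : (a + 1) * 2 ^ s ≤ S.n) (h : X → ℝ) (h0 : ∀ x, 0 ≤ h x)
    (hm : ∀ x y, S.q ((a + 1) * 2 ^ s) y = S.q ((a + 1) * 2 ^ s) x → h y = h x) (b b' : ℕ) :
    S.E (fun x => h x * S.nu j x b b') ≤
      S.E (fun x => h x * (S.nu ((a + 1) * 2 ^ s) x b b' + S.G s a x b)) := by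
  unfold Sys.E
  rw [← EE_pull (q := S.q) S.hw ((a + 1) * 2 ^ s) (f := fun x => S.nu j x b b') (h := h) hm]
  exact EE_mono S.hw fun x => mul_le_mul_of_nonneg_left (av_nu_le S h1 h2 hL x b b') (h0 x)

theorem nb_mul {s : ℕ} (hs : s ≤ S.smax) : S.nb 0 = S.nb s * 16 ^ s := by
  unfold Sys.nb
  rw [Nat.sub_zero, mul_assoc, ← pow_add, Nat.sub_add_cancel hs]

theorem nb_succ {s : ℕ} (hs : s + 1 ≤ S.smax) : S.nb s = S.nb (s + 1) * 16 := by
  unfold Sys.nb
  rw [mul_assoc, ← pow_succ]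
  congr 2
  omega

theorem nb_smax : S.nb S.smax = S.NB := by simp [Sys.nb]

theorem nbD {s : ℕ} (hs : s ≤ S.smax) : S.nb s * S.D s = S.NB * S.D S.smax := by
  unfold Sys.nb Sys.D
  rw [mul_assoc, ← mul_assoc (16 ^ (S.smax - s)), ← pow_add, Nat.sub_add_cancel hs]

theorem na_mul {s : ℕ} (hs : s ≤ S.smax) : S.na s * 2 ^ s = S.n := by
  unfold Sys.na
  exact Nat.div_mul_cancel ((pow_dvd_pow 2 hs).trans S.hn)

/-- Level windows. -/
theorem lev {s j : ℕ} (hs : s ≤ S.smax) (hj : j < S.n) :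
    j / 2 ^ s * 2 ^ s ≤ j ∧ j ≤ (j / 2 ^ s + 1) * 2 ^ s ∧ (j / 2 ^ s + 1) * 2 ^ s ≤ S.n ∧
      j / 2 ^ s < S.na s := by
  have h2 : 0 < 2 ^ s := by positivity
  have h3 := na_mul S hs
  have h4 : j / 2 ^ s < S.na s := by
    rw [Nat.div_lt_iff_lt_mul h2, h3]; exact hj
  refine ⟨Nat.div_mul_le_self j (2 ^ s), ?_, ?_, h4⟩
  · exact (Nat.lt_mul_of_div_lt (Nat.lt_succ_self _) h2).le
  · rw [← h3]
    exact Nat.mul_le_mul_right _ h4

/-- The masses of the small blocks add up to the mass of the block of scale `s`. -/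
theorem sum_blocks {s : ℕ} (hs : s ≤ S.smax) (o j : ℕ) (x : X) (f : ℕ → ℝ) :
    ∑ k ∈ range (S.nb 0), f (k / 16 ^ s) * S.nu j x (S.b0 o 0 k) (S.b1 o 0 k) =
      ∑ K ∈ range (S.nb s), f K * S.nu j x (S.b0 o s K) (S.b1 o s K) := by
  rw [nb_mul S hs, sum_range_group]
  refine sum_congr rfl fun K _ => ?_
  have hB : 0 < 16 ^ s := by positivity
  have h : ∀ i ∈ range (16 ^ s),
      f ((K * 16 ^ s + i) / 16 ^ s) * S.nu j x (S.b0 o 0 (K * 16 ^ s + i))
        (S.b1 o 0 (K * 16 ^ s + i)) =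
      f K * (S.e j x (S.b0 o s K + i * S.D0) - S.e j x (S.b0 o s K + (i + 1) * S.D0)) := by
    intro i hi
    rw [mem_range] at hi
    have h1 : (K * 16 ^ s + i) / 16 ^ s = K := by
      rw [Nat.mul_comm K, Nat.mul_add_div hB, Nat.div_eq_of_lt hi, Nat.add_zero]
    have h2 : S.b0 o 0 (K * 16 ^ s + i) = S.b0 o s K + i * S.D0 := by
      unfold Sys.b0 Sys.D; ring
    have h3 : S.b1 o 0 (K * 16 ^ s + i) = S.b0 o s K + (i + 1) * S.D0 := by
      unfold Sys.b0 Sys.b1 Sys.D; ring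
    rw [h1, h2, h3]
    rfl
  rw [sum_congr rfl h, ← mul_sum, sum_range_sub' (fun i => S.e j x (S.b0 o s K + i * S.D0))]
  have h4 : S.b0 o s K + 0 * S.D0 = S.b0 o s K := by simp
  have h5 : S.b0 o s K + 16 ^ s * S.D0 = S.b1 o s K := by
    unfold Sys.b0 Sys.b1 Sys.D; ring
  rw [h4, h5]
  rfl

theorem nuT_meas (o s a K : ℕ) {x y : X}
    (h : S.q ((a + 1) * 2 ^ s) y = S.q ((a + 1) * 2 ^ s) x) :
    S.nuT o s a y K = S.nuT o s a x K := by
  unfold Sys.nuT Sys.nu
  rw [S.meas _ y x h]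

/-- Total mass of a node in all blocks. -/
theorem sum_nuT_le {s : ℕ} (o a : ℕ) (x : X) :
    ∑ K ∈ range (S.nb s), S.nuT o s a x K ≤ 1 := by
  have h : ∀ K ∈ range (S.nb s), S.nuT o s a x K =
      S.e ((a + 1) * 2 ^ s) x (o + K * S.D s) - S.e ((a + 1) * 2 ^ s) x (o + (K + 1) * S.D s) :=
    fun K _ => rfl
  rw [sum_congr rfl h, sum_range_sub' (fun K => S.e ((a + 1) * 2 ^ s) x (o + K * S.D s))]
  have h1 := S.le_one ((a + 1) * 2 ^ s) x (o + 0 * S.D s)
  have h2 := S.nonneg ((a + 1) * 2 ^ s) x (o + S.nb s * S.D s)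
  linarith

/-- Sum over the levels of a quantity that depends on the top only. -/
theorem sum_levels {s : ℕ} (hs : s ≤ S.smax) (F : ℕ → ℝ) :
    ∑ j ∈ range S.n, F (j / 2 ^ s) = (2 : ℝ) ^ s * ∑ a ∈ range (S.na s), F a := by
  rw [← na_mul S hs, sum_range_div]
  push_cast
  rfl

/-- STEP 2: the elements that are light at all scales. -/
theorem step2 (th : ℕ → ℝ) (hth : 0 ≤ th S.smax) (o : ℕ) :
    ∑ j ∈ range S.n, ∑ k ∈ range (S.nb 0),
      S.E (fun x => ind (∀ t, t ≤ S.smax → S.nuT o t (j / 2 ^ t) x (k / 16 ^ t) < th t) *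
        S.nu j x (S.b0 o 0 k) (S.b1 o 0 k)) ≤
      (S.n : ℝ) * (S.NB * th S.smax) +
        2 ^ S.smax * ∑ a ∈ range (S.na S.smax), ∑ K ∈ range (S.nb S.smax),
          S.E (fun x => S.G S.smax a x (S.b0 o S.smax K)) := by
  set s := S.smax with hs
  have hs' : s ≤ S.smax := le_of_eq hs
  have key : ∀ j ∈ range S.n, ∑ k ∈ range (S.nb 0),
      S.E (fun x => ind (∀ t, t ≤ S.smax → S.nuT o t (j / 2 ^ t) x (k / 16 ^ t) < th t) *
        S.nu j x (S.b0 o 0 k) (S.b1 o 0 k)) ≤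
      S.NB * th s + ∑ K ∈ range (S.nb s), S.E (fun x => S.G s (j / 2 ^ s) x (S.b0 o s K)) := by
    intro j hj
    rw [mem_range] at hj
    obtain ⟨h1, h2, h3, _⟩ := lev S hs' hj
    have e1 : ∑ k ∈ range (S.nb 0),
        S.E (fun x => ind (∀ t, t ≤ S.smax → S.nuT o t (j / 2 ^ t) x (k / 16 ^ t) < th t) *
          S.nu j x (S.b0 o 0 k) (S.b1 o 0 k)) ≤
        S.E (fun x => ∑ k ∈ range (S.nb 0),
          (fun K => ind (S.nuT o s (j / 2 ^ s) x K < th s)) (k / 16 ^ s) *
            S.nu j x (S.b0 o 0 k) (S.b1 o 0 k)) := by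
      unfold Sys.E
      rw [EE_sum]
      refine sum_le_sum fun k _ => EE_mono S.hw fun x => ?_
      refine mul_le_mul_of_nonneg_right (ind_mono fun h => h s hs') (nu_nonneg S j x ?_)
      unfold Sys.b0 Sys.b1
      have : k * S.D 0 ≤ (k + 1) * S.D 0 := Nat.mul_le_mul_right _ (Nat.le_succ k)
      omega
    refine e1.trans ?_
    have e2 : S.E (fun x => ∑ k ∈ range (S.nb 0),
          (fun K => ind (S.nuT o s (j / 2 ^ s) x K < th s)) (k / 16 ^ s) *
            S.nu j x (S.b0 o 0 k) (S.b1 o 0 k)) =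
        ∑ K ∈ range (S.nb s), S.E (fun x => ind (S.nuT o s (j / 2 ^ s) x K < th s) *
          S.nu j x (S.b0 o s K) (S.b1 o s K)) := by
      have : (fun x => ∑ k ∈ range (S.nb 0),
          (fun K => ind (S.nuT o s (j / 2 ^ s) x K < th s)) (k / 16 ^ s) *
            S.nu j x (S.b0 o 0 k) (S.b1 o 0 k)) =
          fun x => ∑ K ∈ range (S.nb s), ind (S.nuT o s (j / 2 ^ s) x K < th s) *
            S.nu j x (S.b0 o s K) (S.b1 o s K) := by
        funext x
        exact sum_blocks S hs' o j x (fun K => ind (S.nuT o s (j / 2 ^ s) x K < th s))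
      rw [this]
      exact EE_sum _ _
    rw [e2]
    have e3 : ∀ K ∈ range (S.nb s), S.E (fun x => ind (S.nuT o s (j / 2 ^ s) x K < th s) *
          S.nu j x (S.b0 o s K) (S.b1 o s K)) ≤
        th s + S.E (fun x => S.G s (j / 2 ^ s) x (S.b0 o s K)) := by
      intro K _
      refine (E_nu_le S h1 h2 h3 (fun x => ind (S.nuT o s (j / 2 ^ s) x K < th s))
        (fun x => ind_nonneg _) (fun x y h => by rw [nuT_meas S o s _ K h]) _ _).trans ?_
      have e4 : th s + S.E (fun x => S.G s (j / 2 ^ s) x (S.b0 o s K)) =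
          S.E (fun x => th s + S.G s (j / 2 ^ s) x (S.b0 o s K)) := by
        unfold Sys.E
        rw [EE_add, EE_const S.hw]
      rw [e4]
      refine EE_mono S.hw fun x => ?_
      have h4 := G_nonneg S h3 x (S.b0 o s K)
      by_cases h5 : S.nuT o s (j / 2 ^ s) x K < th s
      · rw [ind_true h5, one_mul]
        have : S.nu ((j / 2 ^ s + 1) * 2 ^ s) x (S.b0 o s K) (S.b1 o s K) < th s := h5
        linarith
      · rw [ind_false h5, zero_mul]
        have : 0 ≤ th s := hth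
        linarith
    refine (sum_le_sum e3).trans ?_
    rw [sum_add_distrib, sum_const, card_range, nsmul_eq_mul]
    have : S.nb s = S.NB := nb_smax S
    rw [this]
  refine (sum_le_sum key).trans ?_
  rw [sum_add_distrib, sum_const, card_range, nsmul_eq_mul,
    sum_levels S hs' (fun a => ∑ K ∈ range (S.nb s), S.E (fun x => S.G s a x (S.b0 o s K)))]

/-- STEP 3: the elements that are light at scale `s` and whose top of scale `s + 1` has mass more
than `c`. -/
theorem step3 {s : ℕ} (hs : s + 1 ≤ S.smax) (t c eps : ℝ) (ht : 0 ≤ t) (heps : 0 ≤ eps)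
    (htc : 16 * t ≤ eps * c) (o : ℕ) :
    ∑ j ∈ range S.n, ∑ k ∈ range (S.nb 0),
      S.E (fun x => ind (S.nuT o s (j / 2 ^ s) x (k / 16 ^ s) < t ∧
          c < S.nuT o (s + 1) (j / 2 ^ (s + 1)) x (k / 16 ^ (s + 1))) *
        S.nu j x (S.b0 o 0 k) (S.b1 o 0 k)) ≤
      eps * S.n + 2 ^ s * ∑ a ∈ range (S.na s), ∑ K ∈ range (S.nb s),
        S.E (fun x => S.G s a x (S.b0 o s K)) := by
  have hs' : s ≤ S.smax := by omega
  have key : ∀ j ∈ range S.n, ∑ k ∈ range (S.nb 0),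
      S.E (fun x => ind (S.nuT o s (j / 2 ^ s) x (k / 16 ^ s) < t ∧
          c < S.nuT o (s + 1) (j / 2 ^ (s + 1)) x (k / 16 ^ (s + 1))) *
        S.nu j x (S.b0 o 0 k) (S.b1 o 0 k)) ≤
      eps + ∑ K ∈ range (S.nb s), S.E (fun x => S.G s (j / 2 ^ s) x (S.b0 o s K)) := by
    intro j hj
    rw [mem_range] at hj
    obtain ⟨h1, h2, h3, _⟩ := lev S hs' hj
    obtain ⟨_, _, h3', _⟩ := lev S hs hj
    have hkk : ∀ k, k / 16 ^ (s + 1) = k / 16 ^ s / 16 := fun k => by
      rw [pow_succ, Nat.div_div_eq_div_mul]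
    have hco : (j / 2 ^ s + 1) * 2 ^ s ≤ (j / 2 ^ (s + 1) + 1) * 2 ^ (s + 1) := by
      have : j / 2 ^ (s + 1) = j / 2 ^ s / 2 := by rw [pow_succ, Nat.div_div_eq_div_mul]
      rw [this, pow_succ, mul_comm (2 ^ s) 2, ← mul_assoc]
      refine Nat.mul_le_mul_right _ ?_
      omega
    set f : X → ℕ → ℝ := fun x K => ind (S.nuT o s (j / 2 ^ s) x K < t ∧
          c < S.nuT o (s + 1) (j / 2 ^ (s + 1)) x (K / 16)) with hf
    have e1 : ∑ k ∈ range (S.nb 0),
        S.E (fun x => ind (S.nuT o s (j / 2 ^ s) x (k / 16 ^ s) < t ∧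
          c < S.nuT o (s + 1) (j / 2 ^ (s + 1)) x (k / 16 ^ (s + 1))) *
          S.nu j x (S.b0 o 0 k) (S.b1 o 0 k)) =
        ∑ K ∈ range (S.nb s), S.E (fun x => f x K * S.nu j x (S.b0 o s K) (S.b1 o s K)) := by
      unfold Sys.E
      rw [← EE_sum, ← EE_sum]
      congr 1
      funext x
      rw [← sum_blocks S hs' o j x (f x)]
      refine sum_congr rfl fun k _ => ?_
      rw [hf]
      simp only [hkk]
    rw [e1]
    have e3 : ∀ K ∈ range (S.nb s),
        S.E (fun x => f x K * S.nu j x (S.b0 o s K) (S.b1 o s K)) ≤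
        t * S.E (fun x => ind (c < S.nuT o (s + 1) (j / 2 ^ (s + 1)) x (K / 16))) +
          S.E (fun x => S.G s (j / 2 ^ s) x (S.b0 o s K)) := by
      intro K _
      refine (E_nu_le S h1 h2 h3 (fun x => f x K) (fun x => ind_nonneg _) (fun x y h => ?_)
        _ _).trans ?_
      · rw [hf]
        show ind _ = ind _
        rw [nuT_meas S o s _ K h, nuT_meas S o (s + 1) _ (K / 16) (nest' S hco h)]
      · unfold Sys.E
        rw [← EE_mul_left, ← EE_add]
        refine EE_mono S.hw fun x => ?_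
        have h4 := G_nonneg S h3 x (S.b0 o s K)
        rw [hf]
        by_cases h5 : S.nuT o s (j / 2 ^ s) x K < t ∧
            c < S.nuT o (s + 1) (j / 2 ^ (s + 1)) x (K / 16)
        · simp only [ind_true h5, ind_true h5.2, one_mul, mul_one]
          have : S.nu ((j / 2 ^ s + 1) * 2 ^ s) x (S.b0 o s K) (S.b1 o s K) < t := h5.1
          linarith
        · simp only [ind_false h5, zero_mul]
          have := mul_nonneg ht
            (ind_nonneg (c < S.nuT o (s + 1) (j / 2 ^ (s + 1)) x (K / 16)))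
          linarith
    refine (sum_le_sum e3).trans ?_
    rw [sum_add_distrib]
    refine add_le_add ?_ le_rfl
    rw [← mul_sum, nb_succ S hs, sum_range_div
      (fun K => S.E (fun x => ind (c < S.nuT o (s + 1) (j / 2 ^ (s + 1)) x K)))]
    have e5 : ∀ K ∈ range (S.nb (s + 1)),
        (16 * t) * S.E (fun x => ind (c < S.nuT o (s + 1) (j / 2 ^ (s + 1)) x K)) ≤
        eps * S.E (fun x => S.nuT o (s + 1) (j / 2 ^ (s + 1)) x K) := by
      intro K _
      unfold Sys.E
      rw [← EE_mul_left, ← EE_mul_left]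
      refine EE_mono S.hw fun x => ?_
      by_cases h5 : c < S.nuT o (s + 1) (j / 2 ^ (s + 1)) x K
      · rw [ind_true h5, mul_one]
        exact htc.trans (mul_le_mul_of_nonneg_left h5.le heps)
      · rw [ind_false h5, mul_zero]
        exact mul_nonneg heps (nuT_nonneg S o (s + 1) _ x K)
    have e6 := sum_le_sum e5
    rw [← mul_sum, ← mul_sum] at e6
    have e7 : ∑ K ∈ range (S.nb (s + 1)),
        S.E (fun x => S.nuT o (s + 1) (j / 2 ^ (s + 1)) x K) ≤ 1 := by
      unfold Sys.E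
      rw [← EE_sum]
      refine (EE_mono S.hw (g := fun _ => (1 : ℝ)) fun x => ?_).trans (EE_const S.hw 1).le
      exact sum_nuT_le S o _ x
    have e8 := mul_le_mul_of_nonneg_left e7 heps
    push_cast
    nlinarith [e6, e8]
  refine (sum_le_sum key).trans ?_
  rw [sum_add_distrib, sum_const, card_range, nsmul_eq_mul,
    sum_levels S hs' (fun a => ∑ K ∈ range (S.nb s), S.E (fun x => S.G s a x (S.b0 o s K)))]
  rw [mul_comm]

end Vale.Agent.P315.H121
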